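import Vale.Agent.P007.Topology

open MeasureTheory Filter Topology

namespace Vale.Agent.P007

open Polynomial in
/-- reals that are roots of integer polynomials of degree at most `n` with coefficients in
`[-C, C]` -/
def rootsBdd (n : ℕ) (C : ℤ) : Set ℝ :=
  ⋃ (f : ℤ[X]) (_ : f.natDegree ≤ n ∧ ∀ i, f.coeff i ∈ Set.Icc (-C) C),
        ((f.map (algebraMap ℤ ℝ)).roots.toFinset : Set ℝ)

theorem finite_rootsBdd (n : ℕ) (C : ℤ) : (rootsBdd n C).Finite :=
  Polynomial.bUnion_roots_finite (algebraMap ℤ ℝ) n (Set.finite_Icc (-C) C)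

theorem exists_embedding {n : ℕ} (D : Datum n) (φ : D.K →+* ℂ) :
    ∃ j, φ = Complex.ofRealHom.comp (D.σ j) := by
  have hinj : Function.Injective (fun j : Fin n => Complex.ofRealHom.comp (D.σ j)) := by
    intro i j hij
    apply D.σ_injective
    ext x
    have := congrArg (fun ψ : D.K →+* ℂ => ψ x) hij
    simpa using this
  have hcard : Fintype.card (Fin n) = Fintype.card (D.K →+* ℂ) := by
    rw [NumberField.Embeddings.card, D.finrank_eq, Fintype.card_fin]
  have hbij := (Fintype.bijective_iff_injective_and_card _).mpr ⟨hinj, hcard⟩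
  obtain ⟨j, hj⟩ := hbij.2 φ
  exact ⟨j, hj.symm⟩

theorem sigma_mem_rootsBdd {n : ℕ} {T : ℝ} (D : Datum n) (α : D.K) (hα : IsIntegral ℤ α)
    (hT : ∀ j, |D.σ j α| ≤ T) (j : Fin n) :
    D.σ j α ∈ rootsBdd n ⌈max T 1 ^ n * (n.choose (n / 2) : ℕ)⌉₊ := by
  have hb : ∀ φ : D.K →+* ℂ, ‖φ α‖ ≤ T := by
    intro φ
    obtain ⟨j, rfl⟩ := exists_embedding D φ
    simpa using hT j
  unfold rootsBdd
  simp only [Set.mem_iUnion]
  have h_map_ℚ_minpoly := minpoly.isIntegrallyClosed_eq_field_fractions' ℚ hα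
  refine ⟨minpoly ℤ α, ⟨?_, fun i => ?_⟩, ?_⟩
  · rw [← (minpoly.monic hα).natDegree_map (algebraMap ℤ ℚ), ← h_map_ℚ_minpoly]
    exact (minpoly.natDegree_le α).trans D.finrank_eq.le
  · rw [Set.mem_Icc, ← abs_le, ← @Int.cast_le ℝ]
    have h1 := NumberField.Embeddings.coeff_bdd_of_norm_le hb i
    rw [D.finrank_eq] at h1
    have h2 : ((|(minpoly ℤ α).coeff i| : ℤ) : ℝ) = ‖(minpoly ℚ α).coeff i‖ := by
      rw [h_map_ℚ_minpoly, Polynomial.coeff_map, eq_intCast, Int.norm_cast_rat,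
        Int.norm_eq_abs, Int.cast_abs]
    rw [h2]
    refine h1.trans ?_
    push_cast
    exact Nat.le_ceil _
  · have hne : (minpoly ℤ α).map (algebraMap ℤ ℝ) ≠ 0 :=
      ((minpoly.monic hα).map _).ne_zero
    simp only [SetLike.mem_coe, Multiset.mem_toFinset]
    rw [Polynomial.mem_roots hne, Polynomial.IsRoot.def, Polynomial.eval_map]
    have h3 : Polynomial.eval₂ (algebraMap ℤ ℝ) (D.σ j α) (minpoly ℤ α) =
        D.σ j (Polynomial.aeval α (minpoly ℤ α)) := by
      rw [Polynomial.aeval_def, Polynomial.hom_eval₂]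
      congr 1
      exact Subsingleton.elim _ _
    rw [h3, minpoly.aeval, map_zero]

/-- the finite set of admissible vectors -/
def vecs (n : ℕ) (T : ℝ) : Set (Fin n → ℝ) :=
  {d | (∀ j, d j ∈ rootsBdd n ⌈max T 1 ^ n * (n.choose (n / 2) : ℕ)⌉₊) ∧
    ∃ j, ∀ k : ℤ, d j ≠ k}

theorem finite_vecs (n : ℕ) (T : ℝ) : (vecs n T).Finite := by
  refine (Set.Finite.pi (fun _ : Fin n => finite_rootsBdd n
    ⌈max T 1 ^ n * (n.choose (n / 2) : ℕ)⌉₊)).subset ?_
  intro d hd
  rw [Set.mem_univ_pi]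
  exact hd.1

/-- the open set avoided by every packet with a small nonrational element in its order -/
def Uset (n : ℕ) (T : ℝ) : Set (X n) := (⋃ d ∈ vecs n T, Ycls d)ᶜ

theorem isOpen_Uset (n : ℕ) (T : ℝ) : IsOpen (Uset n T) := by
  unfold Uset
  rw [isOpen_compl_iff]
  exact (finite_vecs n T).isClosed_biUnion fun d _ => isClosed_Ycls d

theorem nonempty_Uset (n : ℕ) (T : ℝ) : (Uset n T).Nonempty := by
  refine ⟨cls 1, ?_⟩
  intro h
  simp only [Set.mem_iUnion] at h
  obtain ⟨d, hd, h1⟩ := h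
  rw [cls_mem_Ycls] at h1
  obtain ⟨j, hj⟩ := hd.2
  obtain ⟨k, hk⟩ := Yset_one h1 j
  exact hj k hk

theorem datum_pos {n : ℕ} (D : Datum n) : 0 < n := by
  rw [← D.finrank_eq]
  exact Module.finrank_pos

theorem packetMeasure_Uset {n : ℕ} {T : ℝ} (D : Datum n) (α : D.K) (hα : α ∈ D.O)
    (hZ : ∀ k : ℤ, α ≠ k) (hT : ∀ j, |D.σ j α| ≤ T) : D.packetMeasure (Uset n T) = 0 := by
  refine packetMeasure_eq_zero D α hα (isOpen_Uset n T) ?_
  rw [Set.disjoint_left]
  intro x hx hx2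
  apply hx
  simp only [Set.mem_iUnion]
  refine ⟨fun j => D.σ j α, ⟨?_, ⟨⟨0, datum_pos D⟩, ?_⟩⟩, hx2⟩
  · intro j
    exact sigma_mem_rootsBdd D α (D.isIntegral_of_mem α hα) hT j
  · intro k hk
    apply hZ k
    apply (D.σ ⟨0, datum_pos D⟩).injective
    rw [map_intCast]
    exact hk

/-- Necessary condition for convergence. -/
theorem necessary {n : ℕ} (D : ℕ → Datum n) (m : Measure (X n)) (hm : IsInvariantProb m)
    (hconv : ConvergesTo (fun i => (D i).packetMeasure) m) (T : ℝ) :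
    ∀ᶠ i in atTop, (D i).NoSmallElement T := by
  by_contra hcon
  rw [Filter.not_eventually] at hcon
  refine not_converges hm (isOpen_Uset n T) (nonempty_Uset n T) ?_ hconv
  refine hcon.mono ?_
  intro i hi
  unfold Datum.NoSmallElement at hi
  push Not at hi
  obtain ⟨α, hα, hZ, hT⟩ := hi
  exact packetMeasure_Uset (D i) α hα hZ hT

end Vale.Agent.P007
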