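import Mathlib

namespace Vale.Agent.P007

open NumberField

theorem exists_cyclic (m B : ℕ) (hm : 0 < m) :
    ∃ (q : ℕ) (L : IntermediateField ℚ ℂ) (_ : NumberField L), q.Prime ∧ B < q ∧
      IsGalois ℚ L ∧ Module.finrank ℚ L = m ∧ (∀ x ∈ L, starRingEnd ℂ x = x) ∧
      (discr L ∣ (q : ℤ) ^ (q - 2)) := by
  obtain ⟨q, hq, hBq, hmod⟩ := Nat.exists_prime_gt_modEq_one (k := 2 * m) (B + 2) (by omega)
  have : Fact q.Prime := ⟨hq⟩
  have : NeZero q := ⟨hq.ne_zero⟩
  have hdvd : 2 * m ∣ q - 1 := (Nat.modEq_iff_dvd' hq.one_lt.le).mp hmod.symm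
  let M := CyclotomicField q ℚ
  have : IsCyclotomicExtension {q} ℚ M := CyclotomicField.isCyclotomicExtension q ℚ
  have : NumberField M := IsCyclotomicExtension.numberField {q} ℚ M
  have : IsAbelianGalois ℚ M := IsCyclotomicExtension.isAbelianGalois {q} ℚ M
  let ι : M →ₐ[ℚ] ℂ := IsAlgClosed.lift
  let _ : Algebra M ℂ := ι.toRingHom.toAlgebra
  have : IsScalarTower ℚ M ℂ := IsScalarTower.of_algebraMap_eq' (Subsingleton.elim _ _)
  let conjQ : ℂ ≃ₐ[ℚ] ℂ := Complex.conjAe.restrictScalars ℚ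
  let c : Gal(M/ℚ) := conjQ.restrictNormal M
  have hc : ∀ x : M, ι (c x) = starRingEnd ℂ (ι x) := fun x =>
    AlgEquiv.restrictNormal_commutes conjQ M x
  have hc2 : c ^ 2 = 1 := by
    ext x
    apply ι.injective
    change ι ((c ^ 2) x) = ι x
    rw [pow_two, AlgEquiv.mul_apply, hc, hc]
    simp
  let e := IsCyclotomicExtension.Rat.galEquivZMod q M
  have : IsCyclic Gal(M/ℚ) := isCyclic_of_surjective e.symm e.symm.surjective
  obtain ⟨g, hg⟩ := IsCyclic.exists_generator (α := Gal(M/ℚ))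
  have hcard : Nat.card Gal(M/ℚ) = q - 1 := by
    rw [IsGalois.card_aut_eq_finrank, IsCyclotomicExtension.finrank M
      (Polynomial.cyclotomic.irreducible_rat (NeZero.pos q)), Nat.totient_prime hq]
  have hord : orderOf g = q - 1 := by
    rw [orderOf_eq_card_of_forall_mem_zpowers hg, hcard]
  have hmq : m ∣ q - 1 := (Dvd.intro_left 2 rfl).trans hdvd
  let H : Subgroup Gal(M/ℚ) := Subgroup.zpowers (g ^ m)
  have hcH : c ∈ H := by
    obtain ⟨t, ht⟩ := hg c
    simp only at ht
    have h1 : g ^ (2 * t) = 1 := by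
      rw [mul_comm, zpow_mul, ht]
      exact_mod_cast hc2
    have h2 : ((q - 1 : ℕ) : ℤ) ∣ 2 * t := by
      rw [← hord]
      exact orderOf_dvd_iff_zpow_eq_one.mpr h1
    have h3 : ((2 * m : ℕ) : ℤ) ∣ 2 * t := (Int.natCast_dvd_natCast.mpr hdvd).trans h2
    have h4 : (m : ℤ) ∣ t := by
      push_cast at h3
      exact (mul_dvd_mul_iff_left (by norm_num : (2 : ℤ) ≠ 0)).mp h3
    obtain ⟨s, hs⟩ := h4
    rw [Subgroup.mem_zpowers_iff]
    refine ⟨s, ?_⟩
    rw [← ht, hs, zpow_mul]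
    norm_cast
  let L' : IntermediateField ℚ M := IntermediateField.fixedField H
  have hcardH : Nat.card H = (q - 1) / m := by
    rw [Nat.card_zpowers, orderOf_pow, hord, Nat.gcd_eq_right hmq]
  have hL'm : Module.finrank ℚ L' = m := by
    have h1 : Module.finrank L' M = (q - 1) / m := by
      rw [IntermediateField.finrank_fixedField_eq_card, hcardH]
    have h2 : Module.finrank ℚ L' * Module.finrank L' M = q - 1 := by
      rw [Module.finrank_mul_finrank, IsCyclotomicExtension.finrank M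
        (Polynomial.cyclotomic.irreducible_rat (NeZero.pos q)), Nat.totient_prime hq]
    rw [h1] at h2
    have hpos : 0 < (q - 1) / m := Nat.div_pos (Nat.le_of_dvd (by have := hq.two_le; omega) hmq) hm
    have h3 : m * ((q - 1) / m) = q - 1 := Nat.mul_div_cancel' hmq
    exact Nat.eq_of_mul_eq_mul_right hpos (h2.trans h3.symm)
  let L : IntermediateField ℚ ℂ := L'.map ι
  let eL : L' ≃ₐ[ℚ] L := L'.equivMap ι
  have : NumberField L' := inferInstance
  have : NumberField L := NumberField.of_ringEquiv _ _ eL.toRingEquiv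
  refine ⟨q, L, inferInstance, hq, by omega, ?_, ?_, ?_, ?_⟩
  · have : IsAbelianGalois ℚ L' := IsAbelianGalois.tower_bot ℚ L' M
    have : IsGalois ℚ L' := this.toIsGalois
    exact IsGalois.of_algEquiv eL
  · rw [← hL'm]
    exact eL.toLinearEquiv.finrank_eq.symm
  · rintro x ⟨y, hy, rfl⟩
    change starRingEnd ℂ (ι y) = ι y
    rw [← hc]
    congr 1
    exact hy ⟨c, hcH⟩
  · have h1 : discr L = discr L' := (discr_eq_discr_of_algEquiv L' eL).symm
    rw [h1]
    have h2 : discr L' ∣ discr M := discr_dvd_discr L' M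
    have h3 := IsCyclotomicExtension.Rat.discr_prime q M
    rw [h3] at h2
    refine h2.trans ?_
    exact (Int.isUnit_iff.mpr (neg_one_pow_eq_or ℤ _)).mul_left_dvd.mpr dvd_rfl

end Vale.Agent.P007
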