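import Vale.Agent.P007.Defs
import Vale.Agent.P007.Fields

namespace Vale.Agent.P007

open NumberField Filter

theorem exists_int_mul (K : Type) [Field K] [NumberField K] (x : K) :
    ∃ y : ℤ, y ≠ 0 ∧ IsIntegral ℤ ((y : K) * x) := by
  have hx : IsAlgebraic ℤ x := by
    rw [IsFractionRing.isAlgebraic_iff ℤ ℚ K]
    exact Algebra.IsAlgebraic.isAlgebraic x
  obtain ⟨y, hy0, hy⟩ := hx.exists_integral_multiple
  exact ⟨y, hy0, by simpa using hy⟩

theorem span_integralClosure (K : Type) [Field K] [NumberField K] :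
    Submodule.span ℚ ((integralClosure ℤ K).toSubring : Set K) = ⊤ := by
  rw [eq_top_iff]
  rintro x -
  obtain ⟨y, hy0, hy⟩ := exists_int_mul K x
  have h1 : x = ((y : ℚ)⁻¹) • ((y : K) * x) := by
    rw [Algebra.smul_def]
    have : (y : K) ≠ 0 := by exact_mod_cast hy0
    simp only [map_inv₀, map_intCast]
    field_simp
  rw [h1]
  exact Submodule.smul_mem _ _ (Submodule.subset_span hy)

open Classical in
/-- the maximal order of a totally real field, with some ordering of its embeddings -/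
noncomputable def mkDatum {n : ℕ} (K : Type) [Field K] [NumberField K]
    (hreal : ∀ φ : K →+* ℂ, ComplexEmbedding.IsReal φ) (hn : Module.finrank ℚ K = n) :
    Datum n where
  K := K
  finrank_eq := hn
  σ := fun j => ComplexEmbedding.IsReal.embedding
    (hreal ((Fintype.equivFinOfCardEq (by rw [← hn]; exact Embeddings.card K ℂ)).symm j))
  σ_injective := by
    intro i j hij
    have h2 := congrArg (fun ψ : K →+* ℝ => Complex.ofRealHom.comp ψ) hij
    simp only at h2
    apply (Fintype.equivFinOfCardEq (α := K →+* ℂ) (n := n)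
      (by rw [← hn]; exact Embeddings.card K ℂ)).symm.injective
    ext x
    have h3 := congrArg (fun ψ : K →+* ℂ => ψ x) h2
    simpa using h3
  O := (integralClosure ℤ K).toSubring
  isIntegral_of_mem := fun x hx => hx
  span_eq_top := span_integralClosure K

theorem mkDatum_absDisc {n : ℕ} (K : Type) [Field K] [NumberField K]
    (hreal : ∀ φ : K →+* ℂ, ComplexEmbedding.IsReal φ) (hn : Module.finrank ℚ K = n) :
    (mkDatum K hreal hn).absDisc = (discr K).natAbs := by
  unfold Datum.absDisc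
  have h1 : (mkDatum K hreal hn).O = (mkDatum K hreal hn).maxOrder := rfl
  rw [h1, AddSubgroup.relIndex_self]
  simp only [one_pow, mul_one]
  rfl

/-- compositum of two Galois fields fixed by complex conjugation is totally real -/
theorem isReal_sup (F L : IntermediateField ℚ ℂ) (gF : IsGalois ℚ F) (gL : IsGalois ℚ L)
    (hF : ∀ x ∈ F, starRingEnd ℂ x = x) (hL : ∀ x ∈ L, starRingEnd ℂ x = x)
    (φ : ↥(F ⊔ L) →+* ℂ) : ComplexEmbedding.IsReal φ := by
  have key : ∀ (E : IntermediateField ℚ ℂ) (gE : IsGalois ℚ E) (hE : E ≤ F ⊔ L)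
      (hfix : ∀ x ∈ E, starRingEnd ℂ x = x) (x : ℂ) (hx : x ∈ E),
      starRingEnd ℂ (φ ⟨x, hE hx⟩) = φ ⟨x, hE hx⟩ := by
    intro E gE hE hfix x hx
    have nE : @Normal ℚ E _ _ (IntermediateField.algebra' E) := gE.to_normal
    let ψ : E →ₐ[ℚ] ℂ := (φ.toRatAlgHom).comp (IntermediateField.inclusion hE)
    have h1 : ψ.fieldRange = E := @AlgHom.fieldRange_of_normal _ _ _ _ _ E nE ψ
    have h2 : ψ ⟨x, hx⟩ ∈ ψ.fieldRange := ⟨⟨x, hx⟩, rfl⟩
    have h3 : ∀ z, z ∈ ψ.fieldRange → z ∈ E := by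
      intro z hz
      rwa [h1] at hz
    exact hfix _ (h3 _ h2)
  have h1 := key F gF le_sup_left hF
  have h2 := key L gL le_sup_right hL
  have hS : F ⊔ L = IntermediateField.adjoin ℚ ((F : Set ℂ) ∪ (L : Set ℂ)) := by
    rw [IntermediateField.adjoin_union, IntermediateField.adjoin_self,
      IntermediateField.adjoin_self]
  have h3 : ((starRingEnd ℂ).comp φ).toRatAlgHom = φ.toRatAlgHom := by
    refine IntermediateField.algHom_ext_of_eq_adjoin ℚ hS ?_
    rintro x (hx | hx)
    · exact h1 x hx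
    · exact h2 x hx
  ext x
  exact congrArg (fun ψ : ↥(F ⊔ L) →ₐ[ℚ] ℂ => ψ x) h3

theorem finrank_sup_eq (F L : IntermediateField ℚ ℂ) [NumberField F] [NumberField L]
    (gF : IsGalois ℚ F) {p q s t : ℕ} (hp : p.Prime) (hq : q.Prime) (hpq : p ≠ q)
    (hF : discr F ∣ (p : ℤ) ^ s) (hL : discr L ∣ (q : ℤ) ^ t) :
    Module.finrank ℚ ↥(F ⊔ L) = Module.finrank ℚ F * Module.finrank ℚ L := by
  have hcop : IsCoprime (discr F) (discr L) := by
    refine IsCoprime.of_isCoprime_of_dvd_left (IsCoprime.of_isCoprime_of_dvd_right ?_ hL) hF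
    refine IsCoprime.pow ?_
    rw [Nat.isCoprime_iff_coprime]
    exact (Nat.coprime_primes hp hq).mpr hpq
  have fF : FiniteDimensional ℚ F := inferInstance
  have fL : FiniteDimensional ℚ L := inferInstance
  have fI : FiniteDimensional ℚ ↥(F ⊓ L) :=
    FiniteDimensional.of_injective (IntermediateField.inclusion
      (inf_le_left : F ⊓ L ≤ F)).toLinearMap
      (IntermediateField.inclusion_injective (inf_le_left : F ⊓ L ≤ F))
  have nI : NumberField ↥(F ⊓ L) := ⟨⟩
  have hinf : F ⊓ L = ⊥ := by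
    have hd1 : discr ↥(F ⊓ L) ∣ discr F := by
      let _ : Algebra ↥(F ⊓ L) F := (IntermediateField.inclusion inf_le_left).toRingHom.toAlgebra
      exact discr_dvd_discr _ _
    have hd2 : discr ↥(F ⊓ L) ∣ discr L := by
      let _ : Algebra ↥(F ⊓ L) L := (IntermediateField.inclusion inf_le_right).toRingHom.toAlgebra
      exact discr_dvd_discr _ _
    have hu : IsUnit (discr ↥(F ⊓ L)) := hcop.isUnit_of_dvd' hd1 hd2
    by_contra hne
    have : 1 < Module.finrank ℚ ↥(F ⊓ L) := by
      refine Nat.one_lt_iff_ne_zero_and_ne_one.mpr ⟨Module.finrank_pos.ne', ?_⟩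
      exact fun h => hne (IntermediateField.finrank_eq_one_iff.mp h)
    exact (Int.isUnit_iff_abs_eq.not.mpr (by linarith [abs_discr_gt_two this])) hu
  have hld : F.LinearDisjoint L := @IntermediateField.LinearDisjoint.of_inf_eq_bot _ _ _ _ _ F L
    gF fF fL hinf
  exact hld.finrank_sup

/-- In every composite degree: maximal orders of totally real fields with discriminants tending
to infinity, all containing one fixed nonrational algebraic integer. -/
theorem exists_data (n : ℕ) (hn : 4 ≤ n) (hc : ¬ n.Prime) :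
    ∃ (D : ℕ → Datum n) (T : ℝ), (∀ i, (D i).O = (D i).maxOrder) ∧
      Tendsto (fun i => (D i).absDisc) atTop atTop ∧
      ∀ i, ∃ α ∈ (D i).O, (∀ k : ℤ, α ≠ k) ∧ ∀ j, |(D i).σ j α| ≤ T := by
  obtain ⟨a, b, ha, hb, rfl⟩ : ∃ a b : ℕ, 2 ≤ a ∧ 2 ≤ b ∧ n = a * b := by
    obtain ⟨a, ⟨b, hab⟩, ha1, ha2⟩ := (Nat.not_prime_iff_exists_dvd_lt (by omega)).mp hc
    refine ⟨a, b, ha1, ?_, hab⟩
    by_contra hb
    have : b = 0 ∨ b = 1 := by omega
    rcases this with rfl | rfl <;> omega
  obtain ⟨q0, F, nF, hq0, -, gF, hFa, hFreal, hFd⟩ := exists_cyclic a 0 (by omega)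
  have hcyc := fun i : ℕ => exists_cyclic b (max q0 i) (by omega)
  choose q L nL hq hlt gL hLb hLreal hLd using hcyc
  have hfin : ∀ i, Module.finrank ℚ ↥(F ⊔ L i) = a * b := by
    intro i
    have h1 : q0 ≠ q i := by
      have := hlt i
      have := le_max_left q0 i
      omega
    rw [finrank_sup_eq F (L i) gF hq0 (hq i) h1 hFd (hLd i), hFa, hLb i]
  have nK : ∀ i, NumberField ↥(F ⊔ L i) := by
    intro i
    have : FiniteDimensional ℚ ↥(F ⊔ L i) := by
      apply FiniteDimensional.of_finrank_pos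
      rw [hfin i]
      positivity
    exact ⟨⟩
  have hreal : ∀ i, ∀ φ : ↥(F ⊔ L i) →+* ℂ, ComplexEmbedding.IsReal φ := fun i φ =>
    isReal_sup F (L i) gF (gL i) hFreal (hLreal i) φ
  -- a nonrational integer of `F`
  obtain ⟨x, hx⟩ : ∃ x : F, ∀ r : ℚ, x ≠ r := by
    by_contra hcon
    push Not at hcon
    have : F = ⊥ := by
      rw [eq_bot_iff]
      intro y hy
      obtain ⟨r, hr⟩ := hcon ⟨y, hy⟩
      rw [IntermediateField.mem_bot]
      refine ⟨r, ?_⟩
      have := congrArg (fun z : F => (z : ℂ)) hr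
      simpa using this.symm
    have h2 : Module.finrank ℚ F = 1 := IntermediateField.finrank_eq_one_iff.mpr this
    omega
  obtain ⟨y, hy0, hy⟩ := exists_int_mul F x
  set β : F := (y : F) * x with hβ
  have hβZ : ∀ k : ℤ, β ≠ k := by
    intro k hk
    apply hx ((k : ℚ) / y)
    have : (y : F) ≠ 0 := by exact_mod_cast hy0
    push_cast
    field_simp
    rw [mul_comm, ← hβ, hk]
  let T : ℝ := ∑ ψ : F →+* ℂ, ‖ψ β‖
  refine ⟨fun i => mkDatum ↥(F ⊔ L i) (hreal i) (hfin i), T, fun i => rfl, ?_, ?_⟩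
  · simp only [mkDatum_absDisc]
    rw [Filter.tendsto_atTop]
    intro N
    rw [Filter.eventually_atTop]
    refine ⟨N, fun i hi => ?_⟩
    have h1 : discr (L i) ∣ discr ↥(F ⊔ L i) := by
      let _ : Algebra (L i) ↥(F ⊔ L i) :=
        (IntermediateField.inclusion (le_sup_right : L i ≤ F ⊔ L i)).toRingHom.toAlgebra
      exact discr_dvd_discr _ _
    have h2 : 2 < |discr (L i)| := abs_discr_gt_two (by rw [hLb i]; omega)
    have h3 : (q i) ∣ (discr (L i)).natAbs := by
      have h4 : (discr (L i)).natAbs ∣ (q i) ^ (q i - 2) := by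
        have := Int.natAbs_dvd_natAbs.mpr (hLd i)
        simpa [Int.natAbs_pow] using this
      obtain ⟨k, -, hk⟩ := (Nat.dvd_prime_pow (hq i)).mp h4
      rw [hk]
      have : k ≠ 0 := by
        rintro rfl
        rw [pow_zero] at hk
        have : |discr (L i)| = 1 := by
          rw [Int.abs_eq_natAbs, hk]; rfl
        omega
      exact dvd_pow_self _ this
    have h5 : (q i) ∣ (discr ↥(F ⊔ L i)).natAbs := h3.trans (Int.natAbs_dvd_natAbs.mpr h1)
    have h6 : (discr ↥(F ⊔ L i)).natAbs ≠ 0 := Int.natAbs_ne_zero.mpr (discr_ne_zero _)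
    have h7 := Nat.le_of_dvd (Nat.pos_of_ne_zero h6) h5
    have h8 := hlt i
    have h9 := le_max_right q0 i
    omega
  · intro i
    let inc : F →+* ↥(F ⊔ L i) :=
      (IntermediateField.inclusion (le_sup_left : F ≤ F ⊔ L i)).toRingHom
    refine ⟨inc β, ?_, ?_, ?_⟩
    · exact (hy.map (inc.toIntAlgHom) : IsIntegral ℤ (inc β))
    · intro k hk
      apply hβZ k
      apply inc.injective
      rw [map_intCast]
      exact hk
    · intro j
      let ψ : F →+* ℂ := (Complex.ofRealHom.comp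
        ((mkDatum ↥(F ⊔ L i) (hreal i) (hfin i)).σ j)).comp inc
      have h1 : |(mkDatum ↥(F ⊔ L i) (hreal i) (hfin i)).σ j (inc β)| = ‖ψ β‖ := by
        change _ = ‖(((mkDatum ↥(F ⊔ L i) (hreal i) (hfin i)).σ j (inc β) : ℝ) : ℂ)‖
        rw [Complex.norm_real, Real.norm_eq_abs]
      rw [h1]
      exact Finset.single_le_sum (f := fun ψ : F →+* ℂ => ‖ψ β‖)
        (fun _ _ => norm_nonneg _) (Finset.mem_univ ψ)

end Vale.Agent.P007
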