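import Mathlib

open MeasureTheory Filter Topology

namespace Vale.Agent.P007

/-- `SL_n(ℝ)`. -/
abbrev G (n : ℕ) : Type := Matrix.SpecialLinearGroup (Fin n) ℝ

/-- `SL_n(ℤ)` as a subgroup of `SL_n(ℝ)`. -/
def Gam (n : ℕ) : Subgroup (G n) :=
  (Matrix.SpecialLinearGroup.map (n := Fin n) (Int.castRingHom ℝ)).range

/-- `X_n = SL_n(ℤ) \ SL_n(ℝ)`: orbits of left multiplication by `SL_n(ℤ)`. -/
def X (n : ℕ) : Type := Quotient (MulAction.orbitRel (Gam n) (G n))

/-- The coset `SL_n(ℤ) g`. -/
def cls {n : ℕ} (g : G n) : X n := Quotient.mk (MulAction.orbitRel (Gam n) (G n)) g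

/-- The quotient topology. -/
instance (n : ℕ) : TopologicalSpace (X n) :=
  inferInstanceAs (TopologicalSpace (Quotient (MulAction.orbitRel (Gam n) (G n))))

/-- The Borel sigma-algebra. -/
instance (n : ℕ) : MeasurableSpace (X n) := borel (X n)

instance (n : ℕ) : BorelSpace (X n) := ⟨rfl⟩

/-- Right translation `SL_n(ℤ) g ↦ SL_n(ℤ) g h`. -/
def act {n : ℕ} (h : G n) : X n → X n :=
  Quotient.map (sa := MulAction.orbitRel (Gam n) (G n)) (sb := MulAction.orbitRel (Gam n) (G n))
    (fun g => g * h) (by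
      rintro a b ⟨γ, hγ⟩
      exact ⟨γ, by simp only [← hγ]; exact smul_mul_assoc γ b h |>.symm⟩)

/-- `(v_1, …, v_{n-1}) ↦ (v_1, …, v_{n-1}, -∑ v_i)`: coordinates on the sum-zero hyperplane. -/
def coords (n : ℕ) (v : Fin (n - 1) → ℝ) (j : Fin n) : ℝ :=
  if h : (j : ℕ) < n - 1 then v ⟨j, h⟩ else -∑ i, v i

theorem sum_coords (n : ℕ) (v : Fin (n - 1) → ℝ) : ∑ j, coords n v j = 0 := by
  rcases n with _ | m
  · simp
  · rw [Fin.sum_univ_castSucc]
    simp [coords]

/-- The element `diag(e^{u_1}, …, e^{u_n})` of `A_n`, where `u = (v, -∑ v)`. -/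
noncomputable def torus (n : ℕ) (v : Fin (n - 1) → ℝ) : G n :=
  ⟨Matrix.diagonal (fun j => Real.exp (coords n v j)), by
    rw [Matrix.det_diagonal, ← Real.exp_sum, sum_coords, Real.exp_zero]⟩

/-- A totally real field `K` of degree `n` with an ordering `σ` of its (real) embeddings
and an order `O` of `K`. -/
structure Datum (n : ℕ) where
  /-- the field -/
  K : Type
  [field : Field K]
  [numberField : NumberField K]
  finrank_eq : Module.finrank ℚ K = n
  /-- the ordered list of the `n` real embeddings -/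
  σ : Fin n → (K →+* ℝ)
  σ_injective : Function.Injective σ
  /-- the order: a subring of the ring of integers spanning `K` over `ℚ` -/
  O : Subring K
  isIntegral_of_mem : ∀ x ∈ O, IsIntegral ℤ x
  span_eq_top : Submodule.span ℚ (O : Set K) = ⊤

attribute [instance] Datum.field Datum.numberField

/-- The full ring of integers of `K`, as a subring of `K`. -/
def Datum.maxOrder {n : ℕ} (D : Datum n) : Subring D.K := (integralClosure ℤ D.K).toSubring

/-- `|Disc O| = |Disc K| [O_K : O]^2`. -/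
noncomputable def Datum.absDisc {n : ℕ} (D : Datum n) : ℕ :=
  (NumberField.discr D.K).natAbs *
    (D.O.toAddSubgroup.relIndex D.maxOrder.toAddSubgroup) ^ 2

/-- The lattice `ℤ^n g` spanned by the rows of `g`. -/
def latticeOf {n : ℕ} (g : G n) : Set (Fin n → ℝ) :=
  Set.range fun k : Fin n → ℤ =>
    Matrix.vecMul (fun i => (k i : ℝ)) (g : Matrix (Fin n) (Fin n) ℝ)

/-- `I` is an `O`-submodule of `K`. -/
def Datum.IsSubmod {n : ℕ} (D : Datum n) (I : AddSubgroup D.K) : Prop :=
  ∀ a ∈ D.O, ∀ x ∈ I, a * x ∈ I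

/-- The product `I J`: the additive subgroup generated by the products `x y`, `x ∈ I`, `y ∈ J`. -/
def Datum.prod {n : ℕ} (D : Datum n) (I J : AddSubgroup D.K) : AddSubgroup D.K :=
  AddSubgroup.closure {z | ∃ x ∈ I, ∃ y ∈ J, x * y = z}

/-- `I` is an invertible fractional `O`-ideal: an `O`-submodule with `I J = O` for some
`O`-submodule `J` of `K`. -/
def Datum.IsInvertible {n : ℕ} (D : Datum n) (I : AddSubgroup D.K) : Prop :=
  D.IsSubmod I ∧ ∃ J : AddSubgroup D.K, D.IsSubmod J ∧ D.prod I J = D.O.toAddSubgroup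

/-- The vector `c σ(α) w` of `ℝ^n`, for a sign vector `w` and `c : ℝ`. -/
def Datum.vec {n : ℕ} (D : Datum n) (w : Fin n → ℤˣ) (c : ℝ) (α : D.K) : Fin n → ℝ :=
  fun j => c * D.σ j α * ((w j : ℤ) : ℝ)

/-- `ℤ^n g = c σ(I) w`. As `g` has determinant one, `c > 0` is the scalar for which
`c σ(I) w` has covolume one, so `SL_n(ℤ) g` is the point `Λ_I w` of `X_n`. -/
def Datum.Represents {n : ℕ} (D : Datum n) (g : G n) (I : AddSubgroup D.K)
    (w : Fin n → ℤˣ) (c : ℝ) : Prop :=
  0 < c ∧ latticeOf g = D.vec w c '' {α | α ∈ I}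

/-- The points `Λ_I w` of `X_n`: `I` runs over the invertible fractional `O`-ideals and `w` over
the diagonal sign matrices. -/
def Datum.points {n : ℕ} (D : Datum n) : Set (X n) :=
  {x | ∃ (g : G n) (I : AddSubgroup D.K) (w : Fin n → ℤˣ) (c : ℝ),
    D.IsInvertible I ∧ D.Represents g I w c ∧ x = cls g}

/-- The orbit `x A_n`. -/
def orbit {n : ℕ} (x : X n) : Set (X n) := Set.range fun v => act (torus n v) x

/-- The packet: the set of the distinct orbits `Λ_I w A_n`. -/
def Datum.packet {n : ℕ} (D : Datum n) : Set (Set (X n)) := orbit '' D.points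

/-- The stabiliser of `x` in `A_n`, in the coordinates `(u_1, …, u_{n-1})`. -/
def stab {n : ℕ} (x : X n) : Set (Fin (n - 1) → ℝ) := {v | act (torus n v) x = x}

/-- The Dirichlet (Voronoi) cell of the stabiliser: up to a null set, a fundamental domain. -/
def cell {n : ℕ} (x : X n) : Set (Fin (n - 1) → ℝ) :=
  {v | ∀ s ∈ stab x, ∑ i, v i ^ 2 ≤ ∑ i, (v i - s i) ^ 2}

/-- `vol(O) ν_O` for the orbit `O = x A_n`: the push-forward, under `v ↦ x a(v)`, of Lebesgue
measure `du_1 ⋯ du_{n-1}` on a fundamental domain of the stabiliser of `x`. -/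
noncomputable def pointMeasure {n : ℕ} (x : X n) : Measure (X n) :=
  (volume.restrict (cell x)).map fun v => act (torus n v) x

open Classical in
/-- `vol(O) ν_O` for an orbit `O`. -/
noncomputable def orbitMeasure {n : ℕ} (O : Set (X n)) : Measure (X n) :=
  if h : O.Nonempty then pointMeasure h.some else 0

/-- `∑_O vol(O) ν_O`, the sum over the distinct orbits of the packet. -/
noncomputable def Datum.packetSum {n : ℕ} (D : Datum n) : Measure (X n) :=
  Measure.sum fun O : D.packet => orbitMeasure (O : Set (X n))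

/-- The packet measure `μ_{O,σ} = (∑_O vol(O) ν_O) / (∑_O vol(O))`. -/
noncomputable def Datum.packetMeasure {n : ℕ} (D : Datum n) : Measure (X n) :=
  (D.packetSum Set.univ)⁻¹ • D.packetSum

/-- `m` is an `SL_n(ℝ)`-invariant Borel probability measure on `X_n` (that is, `m = m_n`). -/
structure IsInvariantProb {n : ℕ} (m : Measure (X n)) : Prop where
  prob : IsProbabilityMeasure m
  inv : ∀ h : G n, m.map (act h) = m

/-- Every element of `O` outside `ℤ` has a conjugate of absolute value `> T`. -/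
def Datum.NoSmallElement {n : ℕ} (D : Datum n) (T : ℝ) : Prop :=
  ∀ α ∈ D.O, (∀ k : ℤ, α ≠ k) → ∃ j, T < |D.σ j α|

/-- No orbit of the packet meets `U`. -/
def Datum.Avoids {n : ℕ} (D : Datum n) (U : Set (X n)) : Prop :=
  ∀ O ∈ D.packet, Disjoint O U

/-- `∫ f dμ_i → ∫ f dm` for every `f ∈ C_c(X_n)`. -/
def ConvergesTo {n : ℕ} (μ : ℕ → Measure (X n)) (m : Measure (X n)) : Prop :=
  ∀ f : X n → ℝ, Continuous f → HasCompactSupport f →
    Tendsto (fun i => ∫ x, f x ∂(μ i)) atTop (𝓝 (∫ x, f x ∂m))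

end Vale.Agent.P007
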