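import Vale.Agent.P007.Bounded
import Vale.Agent.P007.Construct

open MeasureTheory Filter Topology

namespace Vale.Agent.P007

theorem orbit_disjoint_Uset {n : ℕ} {T : ℝ} (D : Datum n) (α : D.K) (hα : α ∈ D.O)
    (hZ : ∀ k : ℤ, α ≠ k) (hT : ∀ j, |D.σ j α| ≤ T) (O : Set (X n)) (hO : O ∈ D.packet) :
    Disjoint O (Uset n T) := by
  rw [Set.disjoint_left]
  intro x hx hx2
  apply hx2
  simp only [Set.mem_iUnion]
  refine ⟨fun j => D.σ j α, ⟨?_, ⟨⟨0, datum_pos D⟩, ?_⟩⟩, orbit_subset D α hα O hO hx⟩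
  · intro j
    exact sigma_mem_rootsBdd D α (D.isIntegral_of_mem α hα) hT j
  · intro k hk
    apply hZ k
    apply (D.σ ⟨0, datum_pos D⟩).injective
    rw [map_intCast]
    exact hk

theorem composite (n : ℕ) (hn : 4 ≤ n) (hc : ¬ n.Prime) :
    ∃ (D : ℕ → Datum n) (U : Set (X n)),
      (∀ i, (D i).O = (D i).maxOrder) ∧
      Tendsto (fun i => (D i).absDisc) atTop atTop ∧
      IsOpen U ∧ U.Nonempty ∧
      (∀ i, (D i).Avoids U) ∧
      (∀ i, (D i).packetMeasure U = 0) ∧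
      ∀ m : Measure (X n), IsInvariantProb m → 0 < m U ∧
        ∀ φ : ℕ → ℕ, StrictMono φ →
          ¬ ConvergesTo (fun i => (D (φ i)).packetMeasure) m := by
  obtain ⟨D, T, hD1, hD2, hD3⟩ := exists_data n hn hc
  have h0 : ∀ i, (D i).packetMeasure (Uset n T) = 0 := by
    intro i
    obtain ⟨α, hα, hZ, hT⟩ := hD3 i
    exact packetMeasure_Uset (D i) α hα hZ hT
  refine ⟨D, Uset n T, hD1, hD2, isOpen_Uset n T, nonempty_Uset n T, ?_, h0, ?_⟩
  · intro i O hO
    obtain ⟨α, hα, hZ, hT⟩ := hD3 i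
    exact orbit_disjoint_Uset (D i) α hα hZ hT O hO
  · intro m hm
    refine ⟨measure_pos hm (isOpen_Uset n T) (nonempty_Uset n T), ?_⟩
    intro φ _
    exact not_converges hm (isOpen_Uset n T) (nonempty_Uset n T)
      (Eventually.frequently (Eventually.of_forall fun i => h0 (φ i)))

end Vale.Agent.P007
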