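import Vale.Agent.P007.Defs

open MeasureTheory Filter Topology

namespace Vale.Agent.P007

/-- matrices `g` such that `g diag(d) = N g` for an integer matrix `N` -/
def Yset {n : ℕ} (d : Fin n → ℝ) : Set (G n) :=
  {g | ∃ N : Matrix (Fin n) (Fin n) ℤ,
    (g : Matrix (Fin n) (Fin n) ℝ) * Matrix.diagonal d = N.map (Int.cast : ℤ → ℝ) * g}

theorem isClosed_Yset {n : ℕ} (d : Fin n → ℝ) : IsClosed (Yset d) := by
  have h1 : Yset d = (fun g : G n => (g : Matrix (Fin n) (Fin n) ℝ) * Matrix.diagonal d *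
      ((g⁻¹ : G n) : Matrix (Fin n) (Fin n) ℝ)) ⁻¹'
      (Set.range (fun N : Matrix (Fin n) (Fin n) ℤ => N.map (Int.cast : ℤ → ℝ))) := by
    ext g
    simp only [Yset, Set.mem_ofPred_eq, Set.mem_preimage, Set.mem_range]
    have hg : (g : Matrix (Fin n) (Fin n) ℝ) * ((g⁻¹ : G n) : Matrix (Fin n) (Fin n) ℝ) = 1 := by
      rw [← Matrix.SpecialLinearGroup.coe_mul]; simp
    have hg' : ((g⁻¹ : G n) : Matrix (Fin n) (Fin n) ℝ) * (g : Matrix (Fin n) (Fin n) ℝ) = 1 := by
      rw [← Matrix.SpecialLinearGroup.coe_mul]; simp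
    constructor
    · rintro ⟨N, hN⟩
      exact ⟨N, by rw [hN, Matrix.mul_assoc, hg, Matrix.mul_one]⟩
    · rintro ⟨N, hN⟩
      refine ⟨N, ?_⟩
      rw [hN, Matrix.mul_assoc, hg', Matrix.mul_one]
  rw [h1]
  refine IsClosed.preimage ?_ ?_
  · have c1 : Continuous (fun g : G n => (g : Matrix (Fin n) (Fin n) ℝ)) :=
      continuous_subtype_val
    have c2 : Continuous (fun g : G n => ((g⁻¹ : G n) : Matrix (Fin n) (Fin n) ℝ)) :=
      continuous_subtype_val.comp continuous_inv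
    exact (c1.mul continuous_const).mul c2
  · have h2 : Topology.IsClosedEmbedding (fun N : Matrix (Fin n) (Fin n) ℤ =>
        N.map (Int.cast : ℤ → ℝ)) := Int.isClosedEmbedding_coe_real.matrix_map
    exact h2.isClosed_range

theorem smul_mem_Yset {n : ℕ} {d : Fin n → ℝ} {g : G n} (γ : Gam n) (hg : g ∈ Yset d) :
    γ • g ∈ Yset d := by
  obtain ⟨N, hN⟩ := hg
  obtain ⟨γ, ⟨δ, rfl⟩⟩ := γ
  refine ⟨(δ : Matrix (Fin n) (Fin n) ℤ) * N * ((δ⁻¹ : Matrix.SpecialLinearGroup (Fin n) ℤ) :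
    Matrix (Fin n) (Fin n) ℤ), ?_⟩
  have hδ : ((δ⁻¹ : Matrix.SpecialLinearGroup (Fin n) ℤ) : Matrix (Fin n) (Fin n) ℤ) *
      (δ : Matrix (Fin n) (Fin n) ℤ) = 1 := by
    rw [← Matrix.SpecialLinearGroup.coe_mul]; simp
  have hδ' := congrArg (fun M : Matrix (Fin n) (Fin n) ℤ => M.map (Int.castRingHom ℝ)) hδ
  simp only [Matrix.map_mul] at hδ'
  have h1 : (((⟨(Matrix.SpecialLinearGroup.map (Int.castRingHom ℝ)) δ, ⟨δ, rfl⟩⟩ : Gam n) • g :
      G n) : Matrix (Fin n) (Fin n) ℝ) =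
      (δ : Matrix (Fin n) (Fin n) ℤ).map (Int.castRingHom ℝ) * (g : Matrix (Fin n) (Fin n) ℝ) := by
    rfl
  rw [h1]
  have h2 : ∀ M : Matrix (Fin n) (Fin n) ℤ, M.map (Int.cast : ℤ → ℝ) =
    M.map (Int.castRingHom ℝ) := fun M => rfl
  rw [h2, Matrix.map_mul, Matrix.map_mul]
  rw [h2] at hN
  have h3 : (1 : Matrix (Fin n) (Fin n) ℤ).map (Int.castRingHom ℝ) = 1 := by simp
  rw [h3] at hδ'
  simp only [Matrix.mul_assoc]
  rw [← Matrix.mul_assoc (((δ⁻¹ : Matrix.SpecialLinearGroup (Fin n) ℤ) :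
    Matrix (Fin n) (Fin n) ℤ).map (Int.castRingHom ℝ)), hδ', Matrix.one_mul, hN]

theorem mul_torus_mem_Yset {n : ℕ} {d : Fin n → ℝ} {g : G n} (v : Fin (n - 1) → ℝ)
    (hg : g ∈ Yset d) : g * torus n v ∈ Yset d := by
  obtain ⟨N, hN⟩ := hg
  refine ⟨N, ?_⟩
  rw [Matrix.SpecialLinearGroup.coe_mul]
  have h1 : ((torus n v : G n) : Matrix (Fin n) (Fin n) ℝ) =
    Matrix.diagonal (fun j => Real.exp (coords n v j)) := rfl
  rw [h1, Matrix.mul_assoc, Matrix.diagonal_mul_diagonal, ← Matrix.mul_assoc, ← hN,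
    Matrix.mul_assoc, Matrix.diagonal_mul_diagonal]
  congr 2
  ext j
  ring

/-- lattices attached to `O`-ideals are stable under `diag(σ(α))` for `α ∈ O` -/
theorem mem_Yset_of_lattice {n : ℕ} (D : Datum n) (g : G n) (I : AddSubgroup D.K)
    (hI : D.IsSubmod I) (w : Fin n → ℤˣ) (c : ℝ)
    (hL : latticeOf g = D.vec w c '' {α | α ∈ I})
    (α : D.K) (hα : α ∈ D.O) : g ∈ Yset (fun j => D.σ j α) := by
  have hrow : ∀ i : Fin n, ∃ k : Fin n → ℤ,
      Matrix.vecMul (fun i => (k i : ℝ)) (g : Matrix (Fin n) (Fin n) ℝ) =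
      fun j => (g : Matrix (Fin n) (Fin n) ℝ) i j * D.σ j α := by
    intro i
    have h1 : (fun j => (g : Matrix (Fin n) (Fin n) ℝ) i j) ∈ latticeOf g := by
      refine ⟨Pi.single i 1, ?_⟩
      ext j
      simp only [Matrix.vecMul, dotProduct]
      rw [Finset.sum_eq_single i]
      · simp
      · intro b _ hb; simp [hb]
      · intro h; exact absurd (Finset.mem_univ i) h
    rw [hL] at h1
    obtain ⟨β, hβ, hβ2⟩ := h1
    have h2 : (fun j => (g : Matrix (Fin n) (Fin n) ℝ) i j * D.σ j α) ∈ latticeOf g := by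
      rw [hL]
      refine ⟨α * β, ?_, ?_⟩
      · exact hI α hα β hβ
      · ext j
        have := congrFun hβ2 j
        simp only [Datum.vec] at this
        simp only [Datum.vec, map_mul]
        rw [← this]
        ring
    exact h2
  choose N hN using hrow
  refine ⟨Matrix.of N, ?_⟩
  ext i j
  rw [Matrix.mul_diagonal]
  exact (congrFun (hN i) j).symm

theorem Yset_one {n : ℕ} {d : Fin n → ℝ} (h : (1 : G n) ∈ Yset d) (j : Fin n) :
    ∃ k : ℤ, d j = k := by
  obtain ⟨N, hN⟩ := h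
  refine ⟨N j j, ?_⟩
  have := congrFun (congrFun hN j) j
  simpa using this

/-- the set of classes in `X_n` of matrices in `Yset d` -/
def Ycls {n : ℕ} (d : Fin n → ℝ) : Set (X n) := cls '' Yset d

theorem cls_mem_Ycls {n : ℕ} {d : Fin n → ℝ} {g : G n} : cls g ∈ Ycls d ↔ g ∈ Yset d := by
  constructor
  · rintro ⟨h, hh, hhg⟩
    have : (MulAction.orbitRel (Gam n) (G n)).r h g := Quotient.exact hhg
    obtain ⟨γ, hγ⟩ := this
    have h2 : g = γ⁻¹ • h := by rw [← hγ]; simp
    rw [h2]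
    exact smul_mem_Yset _ hh
  · intro h
    exact ⟨g, h, rfl⟩

theorem isClosed_Ycls {n : ℕ} (d : Fin n → ℝ) : IsClosed (Ycls d) := by
  have hq : Topology.IsQuotientMap (cls : G n → X n) := isQuotientMap_quot_mk
  rw [← hq.isClosed_preimage]
  have : cls ⁻¹' (Ycls d) = Yset d := by
    ext g
    exact cls_mem_Ycls
  rw [this]
  exact isClosed_Yset d

theorem act_cls {n : ℕ} (h g : G n) : act h (cls g) = cls (g * h) := rfl

/-- the whole packet lies in `Ycls (σ(α))` -/
theorem orbit_subset {n : ℕ} (D : Datum n) (α : D.K) (hα : α ∈ D.O) (O : Set (X n))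
    (hO : O ∈ D.packet) : O ⊆ Ycls (fun j => D.σ j α) := by
  obtain ⟨x, ⟨g, I, w, c, ⟨hI, -⟩, ⟨-, hL⟩, rfl⟩, rfl⟩ := hO
  rintro y ⟨v, rfl⟩
  change act (torus n v) (cls g) ∈ _
  rw [act_cls, cls_mem_Ycls]
  exact mul_torus_mem_Yset v (mem_Yset_of_lattice D g I hI w c hL α hα)

theorem act_mem_Ycls {n : ℕ} {d : Fin n → ℝ} {x : X n} (hx : x ∈ Ycls d)
    (v : Fin (n - 1) → ℝ) : act (torus n v) x ∈ Ycls d := by
  obtain ⟨g, hg, rfl⟩ := hx
  rw [act_cls, cls_mem_Ycls]
  exact mul_torus_mem_Yset v hg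

theorem continuous_coords (n : ℕ) : Continuous (coords n) := by
  refine continuous_pi fun j => ?_
  unfold coords
  split_ifs with h
  · exact continuous_apply _
  · exact (continuous_finsetSum _ fun i _ => continuous_apply i).neg

theorem continuous_torus (n : ℕ) : Continuous (torus n) := by
  refine Continuous.subtype_mk ?_ _
  refine Continuous.matrix_diagonal ?_
  refine continuous_pi fun j => ?_
  exact Real.continuous_exp.comp ((continuous_apply j).comp (continuous_coords n))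

theorem continuous_cls {n : ℕ} : Continuous (cls : G n → X n) := continuous_quot_mk

theorem continuous_orbitMap {n : ℕ} (x : X n) : Continuous (fun v => act (torus n v) x) := by
  obtain ⟨g, rfl⟩ : ∃ g, cls g = x := Quotient.exists_rep x
  simp only [act_cls]
  exact continuous_cls.comp (continuous_const.mul (continuous_torus n))

theorem pointMeasure_eq_zero {n : ℕ} {d : Fin n → ℝ} {x : X n} (hx : x ∈ Ycls d)
    {U : Set (X n)} (hU : IsOpen U) (hUd : Disjoint U (Ycls d)) : pointMeasure x U = 0 := by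
  unfold pointMeasure
  rw [Measure.map_apply (continuous_orbitMap x).measurable hU.measurableSet]
  have : (fun v => act (torus n v) x) ⁻¹' U = ∅ := by
    ext v
    simp only [Set.mem_preimage, Set.mem_empty_iff_false, iff_false]
    intro h
    exact Set.disjoint_left.mp hUd h (act_mem_Ycls hx v)
  rw [this]
  simp

theorem packetMeasure_eq_zero {n : ℕ} (D : Datum n) (α : D.K) (hα : α ∈ D.O)
    {U : Set (X n)} (hU : IsOpen U) (hUd : Disjoint U (Ycls (fun j => D.σ j α))) :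
    D.packetMeasure U = 0 := by
  have h1 : D.packetSum U = 0 := by
    unfold Datum.packetSum
    rw [Measure.sum_apply _ hU.measurableSet, ENNReal.tsum_eq_zero]
    rintro ⟨O, hO⟩
    unfold orbitMeasure
    split_ifs with h
    · refine pointMeasure_eq_zero (d := fun j => D.σ j α) ?_ hU hUd
      exact orbit_subset D α hα O hO h.some_mem
    · simp
  unfold Datum.packetMeasure
  rw [Measure.smul_apply, h1]
  simp

end Vale.Agent.P007
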