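import Vale.Agent.P007.Obstruction

open MeasureTheory Filter Topology

namespace Vale.Agent.P007

instance locCompG (n : ℕ) : LocallyCompactSpace (G n) := by
  have : LocallyCompactSpace (Matrix (Fin n) (Fin n) ℝ) :=
    inferInstanceAs (LocallyCompactSpace (Fin n → Fin n → ℝ))
  exact Matrix.SpecialLinearGroup.isClosedEmbedding_val.locallyCompactSpace

instance t2G (n : ℕ) : T2Space (G n) :=
  Matrix.SpecialLinearGroup.isClosedEmbedding_val.isEmbedding.t2Space

instance sccG (n : ℕ) : SecondCountableTopology (G n) := by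
  have : SecondCountableTopology (Matrix (Fin n) (Fin n) ℝ) :=
    inferInstanceAs (SecondCountableTopology (Fin n → Fin n → ℝ))
  exact Matrix.SpecialLinearGroup.isClosedEmbedding_val.isEmbedding.secondCountableTopology

instance pdGam (n : ℕ) : ProperlyDiscontinuousSMul (Gam n) (G n) := by
  refine Subgroup.properlyDiscontinuousSMul_of_tendsto_cofinite (Gam n) ?_
  have h1 : Topology.IsClosedEmbedding
      (Matrix.SpecialLinearGroup.map (n := Fin n) (Int.castRingHom ℝ)) :=
    Int.isClosedEmbedding_coe_real.specialLinearGroup_map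
  have h2 : Tendsto (Matrix.SpecialLinearGroup.map (n := Fin n) (Int.castRingHom ℝ)) cofinite
      (cocompact (G n)) := by
    have := h1.tendsto_cocompact
    rwa [Filter.cocompact_eq_cofinite] at this
  intro s hs
  have h3 := h2 hs
  rw [Filter.mem_map, Filter.mem_cofinite] at h3 ⊢
  refine (h3.image (fun δ => (⟨Matrix.SpecialLinearGroup.map (n := Fin n)
    (Int.castRingHom ℝ) δ, ⟨δ, rfl⟩⟩ : Gam n))).subset ?_
  rintro ⟨_, ⟨δ, rfl⟩⟩ hγ
  exact ⟨δ, hγ, rfl⟩

instance t2X (n : ℕ) : T2Space (X n) :=
  inferInstanceAs (T2Space (Quotient (MulAction.orbitRel (Gam n) (G n))))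

theorem isOpenQuotientMap_cls {n : ℕ} : IsOpenQuotientMap (cls : G n → X n) :=
  MulAction.isOpenQuotientMap_quotientMk (Γ := Gam n) (T := G n)

instance lcX (n : ℕ) : LocallyCompactSpace (X n) :=
  (isOpenQuotientMap_cls (n := n)).locallyCompactSpace

instance sccX (n : ℕ) : SecondCountableTopology (X n) :=
  ContinuousConstSMul.secondCountableTopology (Γ := Gam n) (T := G n)

theorem continuous_act {n : ℕ} (h : G n) : Continuous (act h : X n → X n) := by
  rw [(isOpenQuotientMap_cls (n := n)).isQuotientMap.continuous_iff]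
  exact continuous_cls.comp (continuous_mul_const h)

/-- nonempty open sets have positive measure for an invariant probability measure -/
theorem measure_pos {n : ℕ} {m : Measure (X n)} (hm : IsInvariantProb m) {U : Set (X n)}
    (hU : IsOpen U) (hne : U.Nonempty) : 0 < m U := by
  have := hm.prob
  rw [pos_iff_ne_zero]
  intro h0
  obtain ⟨x, hx⟩ := hne
  obtain ⟨g, rfl⟩ : ∃ g, cls g = x := Quotient.exists_rep x
  have hcov : ∀ y : X n, ∃ h : G n, y ∈ act h ⁻¹' U := by
    intro y
    obtain ⟨k, rfl⟩ : ∃ k, cls k = y := Quotient.exists_rep y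
    refine ⟨k⁻¹ * g, ?_⟩
    rw [Set.mem_preimage, act_cls]
    simpa using hx
  have hnull : ∀ h : G n, m (act h ⁻¹' U) = 0 := by
    intro h
    rw [← Measure.map_apply (continuous_act h).measurable hU.measurableSet, hm.inv h, h0]
  have hopen : ∀ h : G n, IsOpen (act h ⁻¹' U) := fun h => hU.preimage (continuous_act h)
  obtain ⟨T, hTc, hT⟩ := TopologicalSpace.isOpen_iUnion_countable _ hopen
  have huniv : (⋃ h ∈ T, act h ⁻¹' U) = Set.univ := by
    rw [hT]
    ext y
    simp only [Set.mem_iUnion, Set.mem_univ, iff_true]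
    exact hcov y
  have : m Set.univ = 0 := by
    rw [← huniv, measure_biUnion_null_iff hTc]
    intro h _
    exact hnull h
  simp at this

/-- if infinitely many `μ_i` vanish on a fixed nonempty open set, there is no convergence to an
invariant probability measure -/
theorem not_converges {n : ℕ} {μ : ℕ → Measure (X n)} {m : Measure (X n)}
    (hm : IsInvariantProb m) {U : Set (X n)} (hU : IsOpen U) (hne : U.Nonempty)
    (h0 : ∃ᶠ i in atTop, μ i U = 0) : ¬ ConvergesTo μ m := by
  intro hc
  have := hm.prob
  obtain ⟨x, hx⟩ := hne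
  obtain ⟨f, hf1, hf2, hf3, hf4⟩ := exists_continuousMap_one_of_isCompact_subset_isOpen
    (isCompact_singleton (x := x)) hU (by simpa using hx)
  have hcs : HasCompactSupport (f : X n → ℝ) := hf2
  have hlim := hc f f.continuous hcs
  have hpos : 0 < ∫ y, f y ∂m := by
    rw [integral_pos_iff_support_of_nonneg]
    · refine measure_pos hm ?_ ⟨x, ?_⟩
      · exact f.continuous.isOpen_support
      · have : f x = 1 := hf1 (Set.mem_singleton x)
        simp [this]
    · exact fun y => (hf4 y).1
    · exact f.continuous.integrable_of_hasCompactSupport hcs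
  have hev : ∀ᶠ i in atTop, 0 < ∫ y, f y ∂(μ i) := hlim.eventually (lt_mem_nhds hpos)
  obtain ⟨i, hi1, hi2⟩ := (h0.and_eventually hev).exists
  have : ∫ y, f y ∂(μ i) = 0 := by
    have hae : (fun y => f y) =ᵐ[μ i] fun _ => 0 := by
      rw [Filter.EventuallyEq, ae_iff]
      refine measure_mono_null ?_ hi1
      intro y hy
      exact hf3 (subset_tsupport _ hy)
    rw [integral_congr_ae hae]
    simp
  linarith

end Vale.Agent.P007
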